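import Vale.Agent.P075.Main

open Vale.Agent.P075

theorem Vale.Agent.Results.P075.Dyadic.result :
    ∃ C : ℝ, ∀ (S : Finset ℤ) (ε : ℤ → ℝ) (F0 F1 F2 : ℝ × ℝ → ℝ),
      (∀ k, |ε k| ≤ 1) → Admissible F0 → Admissible F1 → Admissible F2 →
      (∀ k, Summable fun I : Triple => formL k I.1 F0 F1 F2) ∧
        |formLam S ε F0 F1 F2| ≤ C * (normL3 F0 * normL3 F1 * normL3 F2) :=
  Vale.Agent.P075.main
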